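import Vale.Agent.P227.Lin

namespace Vale.Agent.Results.P227.BlockComposition

open MeasureTheory Set Vale.Agent.P227

/-- (A) The logarithmic Brunn-Minkowski inequality is closed under unconditional composition;
(B) it holds for all pairs of bodies whose norms are functions of common block norms. -/
theorem result :
    (∀ (n m : ℕ) (π : Fin n → Fin m), Function.Surjective π →
      ∀ C D : ∀ b : Fin m, Set (EuclideanSpace ℝ {j // π j = b}),
      (∀ b, SymBody (C b)) → (∀ b, SymBody (D b)) →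
      ∀ s : ℝ, 0 ≤ s → s ≤ 1 → (∀ b, LogBM s (C b) (D b)) →
      ∀ (U V : Set (Fin m → ℝ)) (K L : Set (EuclideanSpace ℝ (Fin n))),
      SymBody K → SymBody L →
      K = {x | (fun b => gauge (C b) (blk π b x)) ∈ U} →
      L = {x | (fun b => gauge (D b) (blk π b x)) ∈ V} →
      ∀ T : EuclideanSpace ℝ (Fin n) ≃ₗ[ℝ] EuclideanSpace ℝ (Fin n),
        LogBM s (T '' K) (T '' L)) ∧
    (∀ (n m : ℕ) (π : Fin n → Fin m), Function.Surjective π →
      ∀ C : ∀ b : Fin m, Set (EuclideanSpace ℝ {j // π j = b}), (∀ b, SymBody (C b)) →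
      ∀ (U V : Set (Fin m → ℝ)) (K L : Set (EuclideanSpace ℝ (Fin n))),
      SymBody K → SymBody L →
      K = {x | (fun b => gauge (C b) (blk π b x)) ∈ U} →
      L = {x | (fun b => gauge (C b) (blk π b x)) ∈ V} →
      ∀ T : EuclideanSpace ℝ (Fin n) ≃ₗ[ℝ] EuclideanSpace ℝ (Fin n),
      ∀ s : ℝ, 0 ≤ s → s ≤ 1 → LogBM s (T '' K) (T '' L)) := by
  constructor
  · intro n m π hπ C D hC hD s hs0 hs1 h U V K L hK hL hKU hLV T
    refine LogBM.image hK hL hs0 hs1 T ?_
    exact logBM_composition hπ hC hD hs0 hs1 h hK hL (fun x => by rw [hKU]; rfl)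
      (fun x => by rw [hLV]; rfl)
  · intro n m π hπ C hC U V K L hK hL hKU hLV T s hs0 hs1
    refine LogBM.image hK hL hs0 hs1 T ?_
    exact logBM_composition hπ hC hC hs0 hs1 (fun b => logBM_self (hC b) hs0 hs1) hK hL
      (fun x => by rw [hKU]; rfl) (fun x => by rw [hLV]; rfl)

end Vale.Agent.Results.P227.BlockComposition
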